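import Mathlib

open Real MeasureTheory
open scoped ContDiff

namespace Vale.Agent.P205aux

/-- primitive of a smooth function -/
theorem primitive_spec {f : ℝ → ℝ} (hf : ContDiff ℝ ∞ f) :
    (∀ x, HasDerivAt (fun x => ∫ t in (0 : ℝ)..x, f t) (f x) x) ∧
      ContDiff ℝ ∞ (fun x => ∫ t in (0 : ℝ)..x, f t) := by
  have hd : ∀ x, HasDerivAt (fun x => ∫ t in (0 : ℝ)..x, f t) (f x) x := fun x =>
    intervalIntegral.integral_hasDerivAt_right (hf.continuous.intervalIntegrable _ _)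
      (hf.continuous.stronglyMeasurableAtFilter _ _) hf.continuous.continuousAt
  refine ⟨hd, ?_⟩
  rw [contDiff_infty_iff_deriv]
  refine ⟨fun x => (hd x).differentiableAt, ?_⟩
  have : deriv (fun x => ∫ t in (0 : ℝ)..x, f t) = f := funext fun x => (hd x).deriv
  rw [this]; exact hf

/-- the height function of the auxiliary closed curve -/
noncomputable def H (N : ℕ) (h0 ε u : ℝ) : ℝ := h0 + ε * sin (N * u)

/-- square of the speed of the auxiliary closed curve -/
noncomputable def S2 (N : ℕ) (h0 ε u : ℝ) : ℝ :=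
  (N * ε * cos (N * u)) ^ 2 / (4 * (H N h0 ε u * (1 - H N h0 ε u))) +
    4 * (H N h0 ε u * (1 - H N h0 ε u))

theorem H_bounds {N : ℕ} {h0 ε : ℝ} (h1 : 1 / 4 ≤ h0) (h2 : h0 ≤ 3 / 4) (h3 : 0 ≤ ε)
    (h4 : ε ≤ 1 / 8) (u : ℝ) : 1 / 8 ≤ H N h0 ε u ∧ H N h0 ε u ≤ 7 / 8 := by
  unfold H
  have h5 := neg_one_le_sin (N * u)
  have h6 := sin_le_one (N * u)
  constructor
  · nlinarith
  · nlinarith

theorem HH_bounds {N : ℕ} {h0 ε : ℝ} (h1 : 1 / 4 ≤ h0) (h2 : h0 ≤ 3 / 4) (h3 : 0 ≤ ε)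
    (h4 : ε ≤ 1 / 8) (u : ℝ) : 7 / 16 ≤ 4 * (H N h0 ε u * (1 - H N h0 ε u)) ∧
      4 * (H N h0 ε u * (1 - H N h0 ε u)) ≤ 1 := by
  obtain ⟨h5, h6⟩ := H_bounds (N := N) h1 h2 h3 h4 u
  constructor
  · nlinarith
  · nlinarith [sq_nonneg (2 * H N h0 ε u - 1)]

theorem S2_lower {N : ℕ} {h0 ε : ℝ} (h1 : 1 / 4 ≤ h0) (h2 : h0 ≤ 3 / 4) (h3 : 0 ≤ ε)
    (h4 : ε ≤ 1 / 8) (u : ℝ) : 7 / 16 ≤ S2 N h0 ε u ∧ (N * ε * cos (N * u)) ^ 2 ≤ S2 N h0 ε u := by
  obtain ⟨h5, h6⟩ := HH_bounds (N := N) h1 h2 h3 h4 u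
  have h7 : 0 < 4 * (H N h0 ε u * (1 - H N h0 ε u)) := by linarith
  have h8 : (N * ε * cos (N * u)) ^ 2 ≤
      (N * ε * cos (N * u)) ^ 2 / (4 * (H N h0 ε u * (1 - H N h0 ε u))) := by
    rw [le_div_iff₀ h7]
    nlinarith [sq_nonneg (N * ε * cos (N * u))]
  unfold S2
  constructor
  · nlinarith [sq_nonneg (N * ε * cos (N * u))]
  · linarith

theorem H_contDiff (N : ℕ) (h0 ε : ℝ) : ContDiff ℝ ∞ (H N h0 ε) := by
  unfold H; fun_prop

theorem S_contDiff {N : ℕ} {h0 ε : ℝ} (h1 : 1 / 4 ≤ h0) (h2 : h0 ≤ 3 / 4) (h3 : 0 ≤ ε)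
    (h4 : ε ≤ 1 / 8) : ContDiff ℝ ∞ (fun u => √(S2 N h0 ε u)) := by
  have hH := H_contDiff N h0 ε
  have : ContDiff ℝ ∞ (fun u => S2 N h0 ε u) := by
    unfold S2
    apply ContDiff.add
    · apply ContDiff.div
      · fun_prop
      · fun_prop
      · intro u
        have := (HH_bounds (N := N) h1 h2 h3 h4 u).1
        positivity
    · fun_prop
  apply this.sqrt
  intro u
  have := (S2_lower (N := N) h1 h2 h3 h4 u).1
  positivity

theorem S2_periodic (N : ℕ) (h0 ε : ℝ) : Function.Periodic (S2 N h0 ε) (2 * π) := by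
  intro u
  have h1 : cos (N * (u + 2 * π)) = cos (N * u) := by
    rw [mul_add]; exact cos_add_nat_mul_two_pi _ _
  have h2 : sin (N * (u + 2 * π)) = sin (N * u) := by
    rw [mul_add]; exact sin_add_nat_mul_two_pi _ _
  simp only [S2, H, h1, h2]

/-- choice of the amplitude: total length prescribed -/
theorem exists_amplitude {h0 : ℝ} (h1 : 1 / 4 ≤ h0) (h2 : h0 ≤ 3 / 4) {ℓ : ℝ} (hℓ : 2 * π ≤ ℓ) :
    ∃ (N : ℕ) (ε : ℝ), 1 ≤ N ∧ 0 ≤ ε ∧ ε ≤ 1 / 8 ∧
      ∫ u in (0 : ℝ)..(2 * π), √(S2 N h0 ε u) = ℓ := by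
  obtain ⟨N, hN⟩ := exists_nat_ge (max 1 (8 * ℓ / π))
  have hN1 : 1 ≤ N := by
    have : (1 : ℝ) ≤ N := (le_max_left _ _).trans hN
    exact_mod_cast this
  have hN2 : 8 * ℓ / π ≤ N := (le_max_right _ _).trans hN
  have hpi := pi_pos
  let c : ℝ → ℝ := fun s => max 0 (min s (1 / 8))
  have hc : Continuous c := by fun_prop
  have hc0 : ∀ s, 0 ≤ c s := fun s => le_max_left _ _
  have hc1 : ∀ s, c s ≤ 1 / 8 := fun s => max_le (by norm_num) (min_le_right _ _)
  let L : ℝ → ℝ := fun s => ∫ u in (0 : ℝ)..(2 * π), √(S2 N h0 (c s) u)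
  have hL : Continuous L := by
    apply intervalIntegral.continuous_parametric_intervalIntegral_of_continuous'
    have hH : Continuous (fun p : ℝ × ℝ => H N h0 (c p.1) p.2) := by
      unfold H; fun_prop
    have : Continuous (fun p : ℝ × ℝ => S2 N h0 (c p.1) p.2) := by
      unfold S2
      apply Continuous.add
      · apply Continuous.div
        · fun_prop
        · fun_prop
        · intro p
          have := (HH_bounds (N := N) h1 h2 (hc0 p.1) (hc1 p.1) p.2).1
          positivity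
      · fun_prop
    exact this.sqrt
  have hL0 : L 0 ≤ ℓ := by
    have hc00 : c 0 = 0 := by simp [c]
    have : L 0 ≤ ∫ u in (0 : ℝ)..(2 * π), (1 : ℝ) := by
      apply intervalIntegral.integral_mono_on (by positivity)
      · exact ((S_contDiff (N := N) h1 h2 (hc0 0) (hc1 0)).continuous).intervalIntegrable _ _
      · exact intervalIntegrable_const
      · intro u _
        rw [hc00, sqrt_le_one]
        have h9 : S2 N h0 0 u = 4 * (h0 * (1 - h0)) := by simp [S2, H]
        rw [h9]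
        nlinarith [sq_nonneg (2 * h0 - 1)]
    rw [intervalIntegral.integral_const] at this
    simp at this
    linarith
  have hL1 : ℓ ≤ L (1 / 8) := by
    have hc18 : c (1 / 8) = 1 / 8 := by simp [c]
    have h5 : ∫ u in (0 : ℝ)..(2 * π), (N * (1 / 8) * cos (N * u) ^ 2) ≤ L (1 / 8) := by
      apply intervalIntegral.integral_mono_on (by positivity)
      · exact (by fun_prop : Continuous fun u : ℝ =>
          (N * (1 / 8) * cos (N * u) ^ 2 : ℝ)).intervalIntegrable _ _
      · exact ((S_contDiff (N := N) h1 h2 (hc0 _) (hc1 _)).continuous).intervalIntegrable _ _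
      · intro u _
        apply le_sqrt_of_sq_le
        have h6 := (S2_lower (N := N) h1 h2 (hc0 (1 / 8)) (hc1 (1 / 8)) u).2
        rw [hc18] at h6 ⊢
        refine le_trans ?_ h6
        have h7 : cos (N * u) ^ 2 ≤ 1 := cos_sq_le_one _
        have h8 : 0 ≤ cos (N * u) ^ 2 := sq_nonneg _
        have h9 : (N * (1 / 8) * cos (N * u) ^ 2 : ℝ) ^ 2 =
          (N * (1 / 8)) ^ 2 * cos (N * u) ^ 2 * cos (N * u) ^ 2 := by ring
        have h10 : (N * (1 / 8) * cos (N * u) : ℝ) ^ 2 =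
          (N * (1 / 8)) ^ 2 * cos (N * u) ^ 2 * 1 := by ring
        rw [h9, h10]
        gcongr
    have h6 : ∫ u in (0 : ℝ)..(2 * π), (N * (1 / 8) * cos (N * u) ^ 2 : ℝ) = N * (1 / 8) * π := by
      rw [intervalIntegral.integral_const_mul]
      congr 1
      have hN0 : (N : ℝ) ≠ 0 := by positivity
      rw [intervalIntegral.integral_comp_mul_left (fun x => cos x ^ 2) hN0]
      rw [integral_cos_sq]
      have h7 : sin (N * (2 * π)) = 0 := by
        have := sin_nat_mul_pi (2 * N)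
        rw [← this]; push_cast; ring_nf
      rw [h7]
      simp
      field_simp
    rw [h6] at h5
    have h7 : ℓ ≤ N * (1 / 8) * π := by
      rw [div_le_iff₀ hpi] at hN2
      linarith
    linarith
  have hivt := intermediate_value_Icc (by norm_num : (0 : ℝ) ≤ 1 / 8) hL.continuousOn
  obtain ⟨s, -, hs⟩ := hivt ⟨hL0, hL1⟩
  exact ⟨N, c s, hN1, hc0 s, hc1 s, hs⟩

/-- the reparametrization: a smooth solution of `u' = Λ / S(u)` with `u(t+1) = u(t) + 2π` -/
theorem exists_reparam {h0 : ℝ} (h1 : 1 / 4 ≤ h0) (h2 : h0 ≤ 3 / 4) {Λ : ℝ → ℝ}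
    (hΛ : ContDiff ℝ ∞ Λ) (hper : Function.Periodic Λ 1) (hlow : ∀ t, 2 * π ≤ Λ t) :
    ∃ (N : ℕ) (ε : ℝ) (u : ℝ → ℝ), 1 ≤ N ∧ 0 ≤ ε ∧ ε ≤ 1 / 8 ∧ ContDiff ℝ ∞ u ∧
      (∀ t, u (t + 1) = u t + 2 * π) ∧
      ∀ t, HasDerivAt u (Λ t / √(S2 N h0 ε (u t))) t := by
  have hℓ : 2 * π ≤ ∫ t in (0 : ℝ)..1, Λ t := by
    have : ∫ t in (0 : ℝ)..1, (2 * π) ≤ ∫ t in (0 : ℝ)..1, Λ t := by
      apply intervalIntegral.integral_mono_on (by norm_num)
      · exact intervalIntegrable_const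
      · exact hΛ.continuous.intervalIntegrable _ _
      · intro t _; exact hlow t
    simpa using this
  obtain ⟨N, ε, hN, h3, h4, hlen⟩ := exists_amplitude h1 h2 hℓ
  have hS := S_contDiff (N := N) h1 h2 h3 h4
  obtain ⟨hσd, hσc⟩ := primitive_spec hS
  obtain ⟨hlamd, hlamc⟩ := primitive_spec hΛ
  set σ : ℝ → ℝ := fun x => ∫ t in (0 : ℝ)..x, √(S2 N h0 ε t) with hσ
  set lam : ℝ → ℝ := fun x => ∫ t in (0 : ℝ)..x, Λ t with hlam
  have hSpos : ∀ v, 1 / 2 ≤ √(S2 N h0 ε v) := by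
    intro v
    apply le_sqrt_of_sq_le
    have := (S2_lower (N := N) h1 h2 h3 h4 v).1
    linarith
  have hmono : StrictMono σ := by
    apply strictMono_of_deriv_pos
    intro x
    rw [(hσd x).deriv]
    linarith [hSpos x]
  have hσ0 : σ 0 = 0 := by simp [hσ]
  have hgrow : ∀ x, 0 ≤ x → x / 2 ≤ σ x := by
    intro x hx
    have : ∫ t in (0 : ℝ)..x, (1 / 2 : ℝ) ≤ σ x := by
      apply intervalIntegral.integral_mono_on hx
      · exact intervalIntegrable_const
      · exact hS.continuous.intervalIntegrable _ _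
      · intro t _; exact hSpos t
    rw [intervalIntegral.integral_const] at this
    simp at this
    linarith
  have hgrow' : ∀ x, x ≤ 0 → σ x ≤ x / 2 := by
    intro x hx
    have : ∫ t in x..(0 : ℝ), (1 / 2 : ℝ) ≤ ∫ t in x..(0 : ℝ), √(S2 N h0 ε t) := by
      apply intervalIntegral.integral_mono_on hx
      · exact intervalIntegrable_const
      · exact hS.continuous.intervalIntegrable _ _
      · intro t _; exact hSpos t
    rw [intervalIntegral.integral_const] at this
    have h9 : σ x = - ∫ t in x..(0 : ℝ), √(S2 N h0 ε t) := by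
      simp only [hσ]; rw [intervalIntegral.integral_symm]
    rw [h9]
    simp at this
    linarith
  have hsurj : Function.Surjective σ := by
    intro y
    have hcont : Continuous σ := hσc.continuous
    rcases le_total 0 y with hy | hy
    · have hmem : y ∈ Set.Icc (σ 0) (σ (2 * y)) := by
        have := hgrow (2 * y) (by linarith)
        exact ⟨by rw [hσ0]; exact hy, by linarith⟩
      obtain ⟨x, -, hx⟩ :=
        intermediate_value_Icc (by linarith : (0 : ℝ) ≤ 2 * y) hcont.continuousOn hmem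
      exact ⟨x, hx⟩
    · have hmem : y ∈ Set.Icc (σ (2 * y)) (σ 0) := by
        have := hgrow' (2 * y) (by linarith)
        exact ⟨by linarith, by rw [hσ0]; exact hy⟩
      obtain ⟨x, -, hx⟩ :=
        intermediate_value_Icc (by linarith : 2 * y ≤ (0 : ℝ)) hcont.continuousOn hmem
      exact ⟨x, hx⟩
  let e : ℝ ≃ₜ ℝ := (hmono.orderIsoOfSurjective σ hsurj).toHomeomorph
  have he : ∀ x, e x = σ x := fun x => rfl
  have hsymm : ContDiff ℝ ∞ (e.symm : ℝ → ℝ) :=
    e.contDiff_symm_deriv (f' := fun x => √(S2 N h0 ε x)) (fun x => by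
      have := hSpos x; positivity) hσd hσc
  have hσper : ∀ x, σ (x + 2 * π) = σ x + σ (2 * π) := by
    intro x
    have hp : Function.Periodic (fun v => √(S2 N h0 ε v)) (2 * π) := by
      intro v; simp only [S2_periodic N h0 ε v]
    have h5 : σ (x + 2 * π) = σ x + ∫ t in x..(x + 2 * π), √(S2 N h0 ε t) := by
      simp only [hσ]
      rw [intervalIntegral.integral_add_adjacent_intervals]
      · exact hS.continuous.intervalIntegrable _ _
      · exact hS.continuous.intervalIntegrable _ _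
    rw [h5, hp.intervalIntegral_add_eq x 0, zero_add]
  have hlamper : ∀ t, lam (t + 1) = lam t + σ (2 * π) := by
    intro t
    have h5 : lam (t + 1) = lam t + ∫ s in t..(t + 1), Λ s := by
      simp only [hlam]
      rw [intervalIntegral.integral_add_adjacent_intervals]
      · exact hΛ.continuous.intervalIntegrable _ _
      · exact hΛ.continuous.intervalIntegrable _ _
    rw [h5, hper.intervalIntegral_add_eq t 0, zero_add]
    congr 1
    exact hlen.symm
  refine ⟨N, ε, fun t => e.symm (lam t), hN, h3, h4, hsymm.comp hlamc, ?_, ?_⟩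
  · intro t
    simp only
    rw [hlamper]
    apply e.injective
    have h7 : σ (e.symm (lam t)) = lam t := e.apply_symm_apply (lam t)
    rw [e.apply_symm_apply, he, hσper, h7]
  · intro t
    have h5 : HasDerivAt (e.symm : ℝ → ℝ) (√(S2 N h0 ε (e.symm (lam t))))⁻¹ (lam t) := by
      have hne : √(S2 N h0 ε (e.symm (lam t))) ≠ 0 := by
        have := hSpos (e.symm (lam t)); positivity
      exact HasDerivAt.of_local_left_inverse e.symm.continuous.continuousAt
        (hσd (e.symm (lam t))) hne (Filter.Eventually.of_forall fun y => e.apply_symm_apply y)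
    have h6 := h5.comp t (hlamd t)
    have h7 : Λ t / √(S2 N h0 ε (e.symm (lam t))) =
        (√(S2 N h0 ε (e.symm (lam t))))⁻¹ * Λ t := div_eq_inv_mul _ _
    simp only [h7]
    exact h6

end Vale.Agent.P205aux
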