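import Mathlib
import Vale.Agent.P205.Curve

open Real MeasureTheory
open scoped ContDiff

namespace Vale.Agent.P205aux

/-- the equivariant map into `ℝ⁴ = ℂ²` -/
noncomputable def Phi (om : ℝ) (a b P Q : ℝ → ℝ) (p : ℝ × ℝ) : EuclideanSpace ℝ (Fin 4) :=
  !₂[a p.1 * cos (om * p.2 + P p.1), a p.1 * sin (om * p.2 + P p.1),
     b p.1 * cos (om * p.2 + Q p.1), b p.1 * sin (om * p.2 + Q p.1)]

theorem comp_deriv (om : ℝ) {a P : ℝ → ℝ} {a' P' : ℝ} (p : ℝ × ℝ) (ha : HasDerivAt a a' p.1)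
    (hP : HasDerivAt P P' p.1) :
    (∃ L : ℝ × ℝ →L[ℝ] ℝ, HasFDerivAt (fun p : ℝ × ℝ => a p.1 * cos (om * p.2 + P p.1)) L p ∧
      ∀ v, L v = (a' * cos (om * p.2 + P p.1) - a p.1 * sin (om * p.2 + P p.1) * P') * v.1
        - a p.1 * sin (om * p.2 + P p.1) * om * v.2) ∧
    (∃ L : ℝ × ℝ →L[ℝ] ℝ, HasFDerivAt (fun p : ℝ × ℝ => a p.1 * sin (om * p.2 + P p.1)) L p ∧
      ∀ v, L v = (a' * sin (om * p.2 + P p.1) + a p.1 * cos (om * p.2 + P p.1) * P') * v.1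
        + a p.1 * cos (om * p.2 + P p.1) * om * v.2) := by
  have h1 : HasFDerivAt (fun p : ℝ × ℝ => a p.1) (a' • ContinuousLinearMap.fst ℝ ℝ ℝ) p :=
    ha.comp_hasFDerivAt p hasFDerivAt_fst
  have h2 : HasFDerivAt (fun p : ℝ × ℝ => P p.1) (P' • ContinuousLinearMap.fst ℝ ℝ ℝ) p :=
    hP.comp_hasFDerivAt p hasFDerivAt_fst
  have h3 : HasFDerivAt (fun p : ℝ × ℝ => om * p.2) (om • ContinuousLinearMap.snd ℝ ℝ ℝ) p :=
    hasFDerivAt_snd.const_mul om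
  have h4 := h3.add h2
  refine ⟨⟨_, h1.mul h4.cos, fun v => ?_⟩, ⟨_, h1.mul h4.sin, fun v => ?_⟩⟩
  · simp
    ring
  · simp
    ring

theorem Phi_spec (om : ℝ) {a b P Q : ℝ → ℝ} (ha : ContDiff ℝ ∞ a) (hb : ContDiff ℝ ∞ b)
    (hP : ContDiff ℝ ∞ P) (hQ : ContDiff ℝ ∞ Q) {a' b' P' Q' : ℝ → ℝ}
    (ha' : ∀ t, HasDerivAt a (a' t) t) (hb' : ∀ t, HasDerivAt b (b' t) t)
    (hP' : ∀ t, HasDerivAt P (P' t) t) (hQ' : ∀ t, HasDerivAt Q (Q' t) t) :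
    ContDiff ℝ ∞ (Phi om a b P Q) ∧ ∀ p v w,
      inner ℝ (fderiv ℝ (Phi om a b P Q) p v) (fderiv ℝ (Phi om a b P Q) p w) =
        v.1 * w.1 * (a' p.1 ^ 2 + b' p.1 ^ 2 + a p.1 ^ 2 * P' p.1 ^ 2 + b p.1 ^ 2 * Q' p.1 ^ 2) +
        (v.1 * w.2 + v.2 * w.1) * (om * (a p.1 ^ 2 * P' p.1 + b p.1 ^ 2 * Q' p.1)) +
        v.2 * w.2 * (om ^ 2 * (a p.1 ^ 2 + b p.1 ^ 2)) := by
  have hcd : ContDiff ℝ ∞ (Phi om a b P Q) := by
    rw [contDiff_euclidean]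
    intro i
    fin_cases i
    · simp only [Phi]
      change ContDiff ℝ ∞ (fun p : ℝ × ℝ => a p.1 * cos (om * p.2 + P p.1))
      fun_prop
    · change ContDiff ℝ ∞ (fun p : ℝ × ℝ => a p.1 * sin (om * p.2 + P p.1))
      fun_prop
    · change ContDiff ℝ ∞ (fun p : ℝ × ℝ => b p.1 * cos (om * p.2 + Q p.1))
      fun_prop
    · change ContDiff ℝ ∞ (fun p : ℝ × ℝ => b p.1 * sin (om * p.2 + Q p.1))
      fun_prop
  refine ⟨hcd, fun p v w => ?_⟩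
  have hdiff : DifferentiableAt ℝ (Phi om a b P Q) p := hcd.differentiable (by simp) p
  have hcomp : ∀ (i : Fin 4) (L : ℝ × ℝ →L[ℝ] ℝ),
      HasFDerivAt (fun q => Phi om a b P Q q i) L p → ∀ v, (fderiv ℝ (Phi om a b P Q) p v) i = L v := by
    intro i L hL v
    have h1 : HasFDerivAt (fun q => Phi om a b P Q q i)
        ((EuclideanSpace.proj i : EuclideanSpace ℝ (Fin 4) →L[ℝ] ℝ).comp
          (fderiv ℝ (Phi om a b P Q) p)) p :=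
      ((EuclideanSpace.proj i : EuclideanSpace ℝ (Fin 4) →L[ℝ] ℝ).hasFDerivAt).comp p
        hdiff.hasFDerivAt
    have h2 := h1.unique hL
    rw [← h2]; rfl
  obtain ⟨⟨L0, hL0, hL0'⟩, ⟨L1, hL1, hL1'⟩⟩ := comp_deriv om p (ha' p.1) (hP' p.1)
  obtain ⟨⟨L2, hL2, hL2'⟩, ⟨L3, hL3, hL3'⟩⟩ := comp_deriv om p (hb' p.1) (hQ' p.1)
  have e0 := hcomp 0 L0 hL0
  have e1 := hcomp 1 L1 hL1
  have e2 := hcomp 2 L2 hL2
  have e3 := hcomp 3 L3 hL3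
  rw [PiLp.inner_apply, Fin.sum_univ_four, e0, e1, e2, e3, e0, e1, e2, e3, hL0', hL1', hL2', hL3',
    hL0', hL1', hL2', hL3']
  simp only [RCLike.inner_apply, conj_trivial]
  have c1 := sin_sq_add_cos_sq (om * p.2 + P p.1)
  have c2 := sin_sq_add_cos_sq (om * p.2 + Q p.1)
  generalize sin (om * p.2 + P p.1) = s1 at *
  generalize cos (om * p.2 + P p.1) = k1 at *
  generalize sin (om * p.2 + Q p.1) = s2 at *
  generalize cos (om * p.2 + Q p.1) = k2 at *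
  linear_combination (v.1 * w.1 * (a' p.1 ^ 2 + a p.1 ^ 2 * P' p.1 ^ 2) +
    (v.1 * w.2 + v.2 * w.1) * (om * (a p.1 ^ 2 * P' p.1)) +
        v.2 * w.2 * (om ^ 2 * (a p.1 ^ 2))) * c1 + (v.1 * w.1 * (b' p.1 ^ 2 + b p.1 ^ 2 * Q' p.1 ^ 2) +
    (v.1 * w.2 + v.2 * w.1) * (om * (b p.1 ^ 2 * Q' p.1)) +
        v.2 * w.2 * (om ^ 2 * (b p.1 ^ 2))) * c2

end Vale.Agent.P205aux
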