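import Mathlib
import Vale.Agent.P205.Assemble

open Real MeasureTheory
open scoped ContDiff

namespace Vale.Agent.P205aux

theorem periodic_bounded {f : ℝ → ℝ} (hf : Continuous f) (hp : Function.Periodic f 1) :
    ∃ B, ∀ t, f t ≤ B := by
  obtain ⟨C, hC⟩ := (isCompact_Icc (a := (0 : ℝ)) (b := 1)).exists_bound_of_continuousOn
    hf.continuousOn
  refine ⟨C, fun t => ?_⟩
  obtain ⟨y, hy, hty⟩ := hp.exists_mem_Ico₀ (by norm_num) t
  rw [hty]
  exact (le_abs_self _).trans (hC y ⟨hy.1, hy.2.le⟩)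

theorem H_hasDerivAt (N : ℕ) (h0 ε v : ℝ) :
    HasDerivAt (H N h0 ε) (N * ε * cos (N * v)) v := by
  unfold H
  have h1 : HasDerivAt (fun v : ℝ => (N : ℝ) * v) N v := by
    simpa using (hasDerivAt_id v).const_mul (N : ℝ)
  have h2 := (h1.sin.const_mul ε).const_add h0
  exact h2.congr_deriv (by ring)

theorem core {E F G : ℝ → ℝ} (hE : ContDiff ℝ ∞ E) (hF : ContDiff ℝ ∞ F) (hG : ContDiff ℝ ∞ G)
    (pE : Function.Periodic E 1) (pF : Function.Periodic F 1) (pG : Function.Periodic G 1)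
    (hpos : ∀ t, 0 < G t) (hdet : ∀ t, 0 < E t * G t - F t ^ 2) :
    ∃ Φ : ℝ × ℝ → EuclideanSpace ℝ (Fin 4), ContDiff ℝ ∞ Φ ∧
      (∀ p : ℝ × ℝ, Φ (p.1 + 1, p.2) = Φ p ∧ Φ (p.1, p.2 + 1) = Φ p) ∧
      ∀ p v w, inner ℝ (fderiv ℝ Φ p v) (fderiv ℝ Φ p w) =
        v.1 * w.1 * E p.1 + (v.1 * w.2 + v.2 * w.1) * F p.1 + v.2 * w.2 * G p.1 := by
  have hpi := pi_pos
  -- the function γ = √G
  set γ : ℝ → ℝ := fun t => √(G t) with hγ
  have hγc : ContDiff ℝ ∞ γ := hG.sqrt fun t => (hpos t).ne'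
  have hγpos : ∀ t, 0 < γ t := fun t => sqrt_pos.2 (hpos t)
  have hγsq : ∀ t, γ t ^ 2 = G t := fun t => sq_sqrt (hpos t).le
  have pγ : Function.Periodic γ 1 := fun t => by simp only [hγ, pG t]
  have hγd : ∀ t, HasDerivAt γ (deriv γ t) t := fun t =>
    (hγc.differentiable (by simp) t).hasDerivAt
  have hγdc : ContDiff ℝ ∞ (deriv γ) := (contDiff_infty_iff_deriv.1 hγc).2
  have pγd : Function.Periodic (deriv γ) 1 := by
    intro t
    have h1 : (fun s => γ (s + 1)) = γ := funext pγ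
    have h2 := deriv_comp_add_const γ 1 t
    rw [← h2, h1]
  -- D
  set D : ℝ → ℝ := fun t => E t - F t ^ 2 / G t with hD
  have hDc : ContDiff ℝ ∞ D := hE.sub ((hF.pow 2).div hG fun t => (hpos t).ne')
  have hDpos : ∀ t, 0 < D t := by
    intro t
    have h1 : D t = (E t * G t - F t ^ 2) / G t := by
      simp only [hD]; field_simp [(hpos t).ne']
    rw [h1]; exact div_pos (hdet t) (hpos t)
  have pD : Function.Periodic D 1 := fun t => by simp only [hD, pE t, pF t, pG t]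
  -- large frequency
  obtain ⟨B, hB⟩ := periodic_bounded
    (f := fun t => (4 * π ^ 2 * G t + deriv γ t ^ 2) / D t)
    (Continuous.div (by have := hG.continuous; have := hγdc.continuous; fun_prop)
      hDc.continuous fun t => (hDpos t).ne')
    (fun t => by simp only [pG t, pγd t, pD t])
  obtain ⟨k, hk⟩ := exists_nat_ge (max 1 B)
  have hk1 : (1 : ℝ) ≤ k := (le_max_left _ _).trans hk
  have hkB : B ≤ k := (le_max_right _ _).trans hk
  obtain ⟨om, hom⟩ : ∃ om : ℝ, om = 2 * π * k := ⟨_, rfl⟩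
  have hompos : 0 < om := by rw [hom]; positivity
  have hom2 : B ≤ om ^ 2 := by
    have h1 : 1 ≤ (2 * π) ^ 2 := by nlinarith [pi_gt_three]
    have h2 : (k : ℝ) ≤ k ^ 2 := by nlinarith
    have h3 : om ^ 2 = (2 * π) ^ 2 * k ^ 2 := by rw [hom]; ring
    rw [h3]
    nlinarith
  have hlow : ∀ t, 4 * π ^ 2 * G t ≤ om ^ 2 * D t - deriv γ t ^ 2 := by
    intro t
    have h1 := (hB t).trans hom2
    rw [div_le_iff₀ (hDpos t)] at h1
    linarith
  -- Λ
  set Λ : ℝ → ℝ := fun t => √((om ^ 2 * D t - deriv γ t ^ 2) / G t) with hΛ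
  have hrad : ∀ t, 4 * π ^ 2 ≤ (om ^ 2 * D t - deriv γ t ^ 2) / G t := by
    intro t
    rw [le_div_iff₀ (hpos t)]
    exact hlow t
  have hΛsq : ∀ t, Λ t ^ 2 = (om ^ 2 * D t - deriv γ t ^ 2) / G t := fun t =>
    sq_sqrt (le_trans (by positivity) (hrad t))
  have hΛc : ContDiff ℝ ∞ Λ := by
    apply ContDiff.sqrt
    · apply ContDiff.div _ hG fun t => (hpos t).ne'
      exact (contDiff_const.mul hDc).sub (hγdc.pow 2)
    · intro t
      have := hrad t
      have : 0 < 4 * π ^ 2 := by positivity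
      linarith
  have pΛ : Function.Periodic Λ 1 := fun t => by simp only [hΛ, pG t, pγd t, pD t]
  have hΛlow : ∀ t, 2 * π ≤ Λ t := by
    intro t
    apply le_sqrt_of_sq_le
    have := hrad t
    nlinarith
  -- μ and its primitive
  set mu : ℝ → ℝ := fun t => om * F t / G t with hmu
  have hmuc : ContDiff ℝ ∞ mu := (contDiff_const.mul hF).div hG fun t => (hpos t).ne'
  have pmu : Function.Periodic mu 1 := fun t => by simp only [hmu, pF t, pG t]
  obtain ⟨hMd, hMc⟩ := primitive_spec hmuc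
  set M : ℝ → ℝ := fun x => ∫ t in (0 : ℝ)..x, mu t with hM
  have hMper : ∀ t, M (t + 1) = M t + M 1 := by
    intro t
    have h5 : M (t + 1) = M t + ∫ s in t..(t + 1), mu s := by
      simp only [hM]
      rw [intervalIntegral.integral_add_adjacent_intervals]
      · exact hmuc.continuous.intervalIntegrable _ _
      · exact hmuc.continuous.intervalIntegrable _ _
    rw [h5, pmu.intervalIntegral_add_eq t 0, zero_add]
  -- choice of the mean height
  set z : ℝ := -(M 1) / (2 * π) - 1 / 2 with hz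
  set h0 : ℝ := (1 / 2 + Int.fract z) / 2 with hh0
  have hfr0 := Int.fract_nonneg z
  have hfr1 := (Int.fract_lt_one z).le
  have hh1 : 1 / 4 ≤ h0 := by rw [hh0]; linarith
  have hh2 : h0 ≤ 3 / 4 := by rw [hh0]; linarith
  have hclose : 4 * π * h0 + M 1 = -(⌊z⌋ : ℝ) * (2 * π) := by
    have h1 : Int.fract z = z - ⌊z⌋ := rfl
    rw [hh0, h1, hz]
    field_simp
    ring
  obtain ⟨N, ε, u, hN, hε0, hε1, huc, hup, hud⟩ := exists_reparam hh1 hh2 hΛc pΛ hΛlow
  have hNpos : (0 : ℝ) < N := by exact_mod_cast hN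
  set Hu : ℝ → ℝ := fun t => H N h0 ε (u t) with hHu
  have hHuc : ContDiff ℝ ∞ Hu := (H_contDiff N h0 ε).comp huc
  have hHb : ∀ t, 1 / 8 ≤ Hu t ∧ Hu t ≤ 7 / 8 := fun t => H_bounds hh1 hh2 hε0 hε1 (u t)
  set u' : ℝ → ℝ := fun t => Λ t / √(S2 N h0 ε (u t)) with hu'
  set c' : ℝ → ℝ := fun t => N * ε * cos (N * u t) with hc'
  have hHud : ∀ t, HasDerivAt Hu (c' t * u' t) t := fun t =>
    (H_hasDerivAt N h0 ε (u t)).comp t (hud t)
  have hkey : ∀ t, u' t ^ 2 * (c' t ^ 2 / (4 * (Hu t * (1 - Hu t))) + 4 * (Hu t * (1 - Hu t))) =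
      Λ t ^ 2 := by
    intro t
    have h1 := (S2_lower (N := N) hh1 hh2 hε0 hε1 (u t)).1
    have h2 : c' t ^ 2 / (4 * (Hu t * (1 - Hu t))) + 4 * (Hu t * (1 - Hu t)) =
      S2 N h0 ε (u t) := rfl
    rw [h2]
    have h3 : √(S2 N h0 ε (u t)) ^ 2 = S2 N h0 ε (u t) := sq_sqrt (by linarith)
    have h4 : u' t ^ 2 = Λ t ^ 2 / √(S2 N h0 ε (u t)) ^ 2 := div_pow _ _ _
    rw [h4, h3, div_mul_cancel₀]
    intro h3; linarith
  -- amplitudes
  set α : ℝ → ℝ := fun t => √(1 - Hu t) with hα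
  set β : ℝ → ℝ := fun t => √(Hu t) with hβ
  have hαpos : ∀ t, 0 < α t := fun t => sqrt_pos.2 (by linarith [(hHb t).2])
  have hβpos : ∀ t, 0 < β t := fun t => sqrt_pos.2 (by linarith [(hHb t).1])
  have hαsq : ∀ t, α t ^ 2 = 1 - Hu t := fun t => sq_sqrt (by linarith [(hHb t).2])
  have hβsq : ∀ t, β t ^ 2 = Hu t := fun t => sq_sqrt (by linarith [(hHb t).1])
  have hαc : ContDiff ℝ ∞ α := (contDiff_const.sub hHuc).sqrt fun t => by
    have := (hHb t).2; intro h; linarith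
  have hβc : ContDiff ℝ ∞ β := hHuc.sqrt fun t => by
    have := (hHb t).1; intro h; linarith
  have hαd : ∀ t, HasDerivAt α (-(c' t * u' t) / (2 * α t)) t := fun t =>
    ((hHud t).const_sub 1).sqrt (by have := (hHb t).2; intro h; linarith)
  have hβd : ∀ t, HasDerivAt β (c' t * u' t / (2 * β t)) t := fun t =>
    (hHud t).sqrt (by have := (hHb t).1; intro h; linarith)
  set a : ℝ → ℝ := fun t => γ t / om * α t with ha
  set b : ℝ → ℝ := fun t => γ t / om * β t with hb
  have hac : ContDiff ℝ ∞ a := (hγc.div_const om).mul hαc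
  have hbc : ContDiff ℝ ∞ b := (hγc.div_const om).mul hβc
  have had : ∀ t, HasDerivAt a
      (deriv γ t / om * α t + γ t / om * (-(c' t * u' t) / (2 * α t))) t := fun t =>
    ((hγd t).div_const om).mul (hαd t)
  have hbd : ∀ t, HasDerivAt b
      (deriv γ t / om * β t + γ t / om * (c' t * u' t / (2 * β t))) t := fun t =>
    ((hγd t).div_const om).mul (hβd t)
  -- phases
  set P : ℝ → ℝ := fun t => M t + (2 * h0 * u t + 2 * ε / N * (1 - cos (N * u t))) with hP
  set Q : ℝ → ℝ := fun t => P t - 2 * u t with hQ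
  have hPc : ContDiff ℝ ∞ P := by
    have h1 := hMc
    have h2 := huc
    simp only [hP]
    fun_prop
  have hQc : ContDiff ℝ ∞ Q := hPc.sub (contDiff_const.mul huc)
  have hPd : ∀ t, HasDerivAt P (mu t + 2 * Hu t * u' t) t := by
    intro t
    have h1 : HasDerivAt (fun t => (N : ℝ) * u t) (N * u' t) t := (hud t).const_mul _
    have h2 := (h1.cos.const_sub 1).const_mul (2 * ε / (N : ℝ))
    have h3 := (hMd t).add (((hud t).const_mul (2 * h0)).add h2)
    refine h3.congr_deriv ?_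
    have h4 : Hu t = h0 + ε * sin (N * u t) := rfl
    rw [h4]
    field_simp
    ring
  have hQd : ∀ t, HasDerivAt Q (mu t + 2 * Hu t * u' t - 2 * u' t) t := fun t =>
    (hPd t).sub ((hud t).const_mul 2)
  have hPper : ∀ t, P (t + 1) = P t - ⌊z⌋ * (2 * π) := by
    intro t
    have h1 : cos (N * u (t + 1)) = cos (N * u t) := by
      rw [hup, mul_add]; exact cos_add_nat_mul_two_pi _ _
    simp only [hP]
    rw [h1, hMper, hup]
    linear_combination hclose
  have hQper : ∀ t, Q (t + 1) = Q t - ((⌊z⌋ + 2 : ℤ) : ℝ) * (2 * π) := by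
    intro t
    simp only [hQ]
    rw [hPper, hup]
    push_cast
    ring
  have hHup : ∀ t, Hu (t + 1) = Hu t := by
    intro t
    have h1 : sin (N * u (t + 1)) = sin (N * u t) := by
      rw [hup, mul_add]; exact sin_add_nat_mul_two_pi _ _
    simp only [hHu, H, h1]
  have haper : ∀ t, a (t + 1) = a t := fun t => by simp only [ha, hα, pγ t, hHup t]
  have hbper : ∀ t, b (t + 1) = b t := fun t => by simp only [hb, hβ, pγ t, hHup t]
  obtain ⟨hΦc, hΦ⟩ := Phi_spec om hac hbc hPc hQc had hbd hPd hQd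
  refine ⟨Phi om a b P Q, hΦc, ?_, ?_⟩
  · intro p
    constructor
    · have e1 : om * p.2 + P (p.1 + 1) = (om * p.2 + P p.1) - (⌊z⌋ : ℤ) * (2 * π) := by
        rw [hPper]; ring
      have e2 : om * p.2 + Q (p.1 + 1) = (om * p.2 + Q p.1) - ((⌊z⌋ + 2 : ℤ) : ℝ) * (2 * π) := by
        rw [hQper]; ring
      simp only [Phi]
      rw [e1, e2, haper, hbper, cos_sub_int_mul_two_pi, sin_sub_int_mul_two_pi,
        cos_sub_int_mul_two_pi, sin_sub_int_mul_two_pi]
    · have e1 : om * (p.2 + 1) + P p.1 = (om * p.2 + P p.1) + (k : ℕ) * (2 * π) := by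
        rw [hom]; ring
      have e2 : om * (p.2 + 1) + Q p.1 = (om * p.2 + Q p.1) + (k : ℕ) * (2 * π) := by
        rw [hom]; ring
      simp only [Phi]
      rw [e1, e2, cos_add_nat_mul_two_pi, sin_add_nat_mul_two_pi,
        cos_add_nat_mul_two_pi, sin_add_nat_mul_two_pi]
  · intro p v w
    rw [hΦ]
    generalize p.1 = t
    have x1 := hαsq t
    have x2 := hβsq t
    have x3 := (hαpos t).ne'
    have x4 := (hβpos t).ne'
    have x5 := hγsq t
    have x6 := hkey t
    have x7 := hΛsq t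
    have x8 := (hpos t).ne'
    have x9 : mu t = om * F t / G t := rfl
    have x10 : D t = E t - F t ^ 2 / G t := rfl
    have x11 : a t = γ t / om * α t := rfl
    have x12 : b t = γ t / om * β t := rfl
    have y0 : 1 - Hu t ≠ 0 := by have := (hHb t).2; intro h; linarith
    have y00 : Hu t ≠ 0 := by have := (hHb t).1; intro h; linarith
    have y1 : om ^ 2 * (a t ^ 2 + b t ^ 2) = G t := by
      rw [x11, x12, mul_pow, mul_pow, x1, x2, div_pow, x5]
      field_simp
      ring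
    have y2 : om * (a t ^ 2 * (mu t + 2 * Hu t * u' t) +
        b t ^ 2 * (mu t + 2 * Hu t * u' t - 2 * u' t)) = F t := by
      rw [x11, x12, mul_pow, mul_pow, x1, x2, div_pow, x5, x9]
      field_simp
      ring
    have y3 : (deriv γ t / om * α t + γ t / om * (-(c' t * u' t) / (2 * α t))) ^ 2 +
        (deriv γ t / om * β t + γ t / om * (c' t * u' t / (2 * β t))) ^ 2 +
        a t ^ 2 * (mu t + 2 * Hu t * u' t) ^ 2 +
        b t ^ 2 * (mu t + 2 * Hu t * u' t - 2 * u' t) ^ 2 = E t := by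
      have z1 : (deriv γ t / om * α t + γ t / om * (-(c' t * u' t) / (2 * α t))) ^ 2 +
        (deriv γ t / om * β t + γ t / om * (c' t * u' t / (2 * β t))) ^ 2 =
        deriv γ t ^ 2 / om ^ 2 * (α t ^ 2 + β t ^ 2) +
          γ t ^ 2 / om ^ 2 * (u' t ^ 2 * c' t ^ 2) / 4 * (1 / α t ^ 2 + 1 / β t ^ 2) := by
        field_simp
        ring
      have z2 : a t ^ 2 * (mu t + 2 * Hu t * u' t) ^ 2 +
        b t ^ 2 * (mu t + 2 * Hu t * u' t - 2 * u' t) ^ 2 =
        G t / om ^ 2 * (mu t ^ 2 + 4 * (Hu t * (1 - Hu t)) * u' t ^ 2) := by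
        rw [x11, x12, mul_pow, mul_pow, x1, x2, div_pow, x5]
        ring
      have z3 : (deriv γ t / om * α t + γ t / om * (-(c' t * u' t) / (2 * α t))) ^ 2 +
        (deriv γ t / om * β t + γ t / om * (c' t * u' t / (2 * β t))) ^ 2 +
        a t ^ 2 * (mu t + 2 * Hu t * u' t) ^ 2 +
        b t ^ 2 * (mu t + 2 * Hu t * u' t - 2 * u' t) ^ 2 =
        deriv γ t ^ 2 / om ^ 2 + G t / om ^ 2 * (mu t ^ 2 + u' t ^ 2 *
          (c' t ^ 2 / (4 * (Hu t * (1 - Hu t))) + 4 * (Hu t * (1 - Hu t)))) := by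
        rw [add_assoc, z2, z1, x1, x2, x5]
        field_simp
        ring
      rw [z3, x6, x7, x9, x10]
      field_simp
      ring
    rw [y1, y2, y3]

end Vale.Agent.P205aux
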