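import Mathlib
import Vale.Agent.P205.Core

open scoped ContDiff

namespace Vale.Agent.P205aux

theorem immerses_of_rational {g : ℝ × ℝ → (ℝ × ℝ) →L[ℝ] (ℝ × ℝ) →L[ℝ] ℝ} (hgs : ContDiff ℝ ∞ g)
    (hsymm : ∀ p v w, g p v w = g p w v) (hpos : ∀ p v, v ≠ 0 → 0 < g p v v)
    (hper0 : ∀ (p : ℝ × ℝ) (m n : ℤ), g (p + ((m : ℝ), (n : ℝ))) = g p) (m n r s : ℤ) (hdet : r * n - s * m = 1)
    (hinv : ∀ (p : ℝ × ℝ) (t : ℝ), g (p + t • ((m : ℝ), (n : ℝ))) = g p) :
    ∃ Φ : ℝ × ℝ → EuclideanSpace ℝ (Fin 4), ContDiff ℝ ∞ Φ ∧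
      (∀ (p : ℝ × ℝ) (m n : ℤ), Φ (p + ((m : ℝ), (n : ℝ))) = Φ p) ∧
      ∀ p v w, inner ℝ (fderiv ℝ Φ p v) (fderiv ℝ Φ p w) = g p v w := by
  have hdet' : (r : ℝ) * n - s * m = 1 := by exact_mod_cast hdet
  let b₁ : ℝ × ℝ := ((r : ℝ), (s : ℝ))
  let b₂ : ℝ × ℝ := ((m : ℝ), (n : ℝ))
  let c : ℝ → ℝ × ℝ := fun t => t • b₁
  have hc : ContDiff ℝ ∞ c := by fun_prop
  have hgc : ContDiff ℝ ∞ (fun t => g (c t)) := hgs.comp hc
  have hper : ∀ t, g (c (t + 1)) = g (c t) := by
    intro t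
    have : c (t + 1) = c t + ((r : ℝ), (s : ℝ)) := by
      simp only [c, add_smul, one_smul]; rfl
    rw [this, hper0]
  have hE : ContDiff ℝ ∞ (fun t => g (c t) b₁ b₁) := by fun_prop
  have hF : ContDiff ℝ ∞ (fun t => g (c t) b₁ b₂) := by fun_prop
  have hG : ContDiff ℝ ∞ (fun t => g (c t) b₂ b₂) := by fun_prop
  have hb₂ : b₂ ≠ 0 := by
    intro h
    have h1 : (m : ℝ) = 0 := congrArg Prod.fst h
    have h2 : (n : ℝ) = 0 := congrArg Prod.snd h
    rw [h1, h2] at hdet'
    simp at hdet'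
  obtain ⟨Φ, hΦ, hΦper, hΦg⟩ := Vale.Agent.P205aux.core hE hF hG
    (fun t => by simp only [hper]) (fun t => by simp only [hper]) (fun t => by simp only [hper])
    (fun t => hpos _ _ hb₂) (fun t => by
      -- Cauchy-Schwarz with independence
      set E := g (c t) b₁ b₁
      set F := g (c t) b₁ b₂
      set G := g (c t) b₂ b₂ with hGdef
      have hGpos : 0 < G := hpos _ _ hb₂
      have hv : G • b₁ - F • b₂ ≠ 0 := by
        intro h
        have h1 : G * r - F * m = 0 := congrArg Prod.fst h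
        have h2 : G * s - F * n = 0 := congrArg Prod.snd h
        have h3 : G * (r * n - s * m) = 0 := by linear_combination (n : ℝ) * h1 - (m : ℝ) * h2
        rw [hdet'] at h3
        linarith
      have h4 := hpos (c t) _ hv
      have h5 : g (c t) (G • b₁ - F • b₂) (G • b₁ - F • b₂) = G * (E * G - F ^ 2) := by
        simp only [map_sub, map_smul, sub_apply, smul_apply,
          smul_eq_mul]
        rw [hsymm (c t) b₂ b₁]
        ring
      rw [h5] at h4
      exact pos_of_mul_pos_right h4 hGpos.le)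
  have hint : ∀ (p : ℝ × ℝ) (a b : ℤ), Φ (p.1 + a, p.2 + b) = Φ p := by
    intro p a b
    have h1 : Function.Periodic (fun x => Φ (x, p.2 + b)) 1 := fun x => (hΦper (x, p.2 + b)).1
    have h2 : Function.Periodic (fun y => Φ (p.1, y)) 1 := fun y => (hΦper (p.1, y)).2
    have h3 := h1.int_mul a p.1
    have h4 := h2.int_mul b p.2
    simp only [mul_one] at h3 h4
    rw [h3, h4]
  let A : (ℝ × ℝ) →L[ℝ] (ℝ × ℝ) :=
    ((n : ℝ) • ContinuousLinearMap.fst ℝ ℝ ℝ - (m : ℝ) • ContinuousLinearMap.snd ℝ ℝ ℝ).prod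
      ((r : ℝ) • ContinuousLinearMap.snd ℝ ℝ ℝ - (s : ℝ) • ContinuousLinearMap.fst ℝ ℝ ℝ)
  have hA : ∀ v, A v = ((n : ℝ) * v.1 - m * v.2, (r : ℝ) * v.2 - s * v.1) := fun v => rfl
  have hdec : ∀ v : ℝ × ℝ, v = (A v).1 • b₁ + (A v).2 • b₂ := by
    intro v
    rw [hA]
    ext
    · change v.1 = (n * v.1 - m * v.2) * r + (r * v.2 - s * v.1) * m
      linear_combination (-v.1) * hdet'
    · change v.2 = (n * v.1 - m * v.2) * s + (r * v.2 - s * v.1) * n
      linear_combination (-v.2) * hdet'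
  refine ⟨fun p => Φ (A p), hΦ.comp A.contDiff, ?_, ?_⟩
  · intro p a b
    have h1 : A (p + ((a : ℝ), (b : ℝ))) =
        ((A p).1 + ((n * a - m * b : ℤ) : ℝ), (A p).2 + ((r * b - s * a : ℤ) : ℝ)) := by
      rw [hA, hA]
      ext
      · simp; ring
      · simp; ring
    simp only [h1, hint]
  · intro p v w
    have h1 : fderiv ℝ (fun p => Φ (A p)) p = (fderiv ℝ Φ (A p)).comp A := by
      rw [fderiv_fun_comp p (hΦ.differentiable (by simp) (A p)) A.differentiableAt, A.fderiv]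
    have h2 : g p = g (c (A p).1) := by
      conv_lhs => rw [hdec p]
      exact hinv _ _
    rw [h1, h2]
    simp only [ContinuousLinearMap.comp_apply, hΦg]
    conv_rhs => rw [hdec v, hdec w]
    simp only [map_add, map_smul, add_apply, smul_apply, smul_eq_mul]
    rw [hsymm _ b₂ b₁]
    ring

/-- invariance in an irrational direction forces invariance under all translations -/
theorem const_of_irrational {g : ℝ × ℝ → (ℝ × ℝ) →L[ℝ] (ℝ × ℝ) →L[ℝ] ℝ} (hgs : ContDiff ℝ ∞ g)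
    (hper0 : ∀ (p : ℝ × ℝ) (m n : ℤ), g (p + ((m : ℝ), (n : ℝ))) = g p) (w : ℝ × ℝ) (hw1 : w.1 ≠ 0)
    (hirr : Irrational (w.2 / w.1))
    (hinv : ∀ (p : ℝ × ℝ) (t : ℝ), g (p + t • w) = g p) (p : ℝ × ℝ) : g p = g 0 := by
  set α := w.2 / w.1 with hα
  have hstep : ∀ (x y : ℝ), g (x, y) = g (0, y - α * x) := by
    intro x y
    rw [← hinv (x, y) (-x / w.1)]
    congr 1
    ext
    · change x + -x / w.1 * w.1 = 0
      field_simp
      ring
    · change y + -x / w.1 * w.2 = y - α * x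
      rw [hα]
      ring
  let φ : ℝ → ((ℝ × ℝ) →L[ℝ] (ℝ × ℝ) →L[ℝ] ℝ) := fun y => g (0, y)
  have hφc : Continuous φ := hgs.continuous.comp (by fun_prop)
  have h1 : ∀ y, φ (y + 1) = φ y := by
    intro y
    have := hper0 (0, y) 0 1
    simpa [φ] using this
  have h2 : ∀ y, φ (y + α) = φ y := by
    intro y
    have h3 := hstep (-1) y
    have h4 := hper0 (0, y) (-1) 0
    have h5 : ((0 : ℝ), y) + (((-1 : ℤ) : ℝ), ((0 : ℤ) : ℝ)) = (-1, y) := by simp
    rw [h5, h3] at h4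
    have h6 : y - α * -1 = y + α := by ring
    rw [h6] at h4
    exact h4
  have hcl : ∀ a ∈ AddSubgroup.closure {α, 1}, ∀ y, φ (y + a) = φ y := by
    intro a ha
    induction ha using AddSubgroup.closure_induction with
    | mem x hx =>
      rcases hx with rfl | hx
      · exact h2
      · rw [Set.mem_singleton_iff.1 hx]; exact h1
    | zero => intro y; simp
    | add x y _ _ hx hy => intro z; rw [← add_assoc, hy, hx]
    | neg x _ hx =>
      intro z
      have := hx (z + -x)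
      rw [neg_add_cancel_right] at this
      exact this.symm
  have hdense : Dense (AddSubgroup.closure {α, 1} : Set ℝ) := by
    rw [dense_addSubgroupClosure_pair_iff]
    simpa using hirr
  have hconst : φ = fun _ => φ 0 := by
    apply Continuous.ext_on hdense hφc continuous_const
    intro a ha
    have := hcl a ha 0
    rwa [zero_add] at this
  have h7 : g p = φ (p.2 - α * p.1) := hstep p.1 p.2
  rw [h7, hconst]
  rfl

end Vale.Agent.P205aux
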